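import Vale.Agent.P192.H663.Relative
import Vale.Agent.P192.H260.TreeAct
import Vale.Agent.P192.H260.Hnn
import Vale.Agent.P192.H260.Rover3
import Vale.Agent.P192.H260.FinQuot
import Vale.Agent.P192.H491.FV
import Vale.Agent.P192.H124.Walls
import Vale.Agent.P192.H826.AA4

/-!
# P192: the class of the groups in which finitely presented periodic groups have finite image
-/

namespace Vale.Agent.Results.P192.ClosureProperties

open Vale.Agent.P192

/-- **Closure properties.** `FPB G` says that every homomorphism from a finitely presented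
periodic group to `G` has finite image. -/
theorem result :
    -- (1) groups whose finitely generated periodic subgroups are finite
    (∀ (G : Type) [Group G],
      (∀ K : Subgroup G, K.FG → (∀ x ∈ K, IsOfFinOrder x) → Finite K) → FPB G) ∧
    -- (2) subgroups
    (∀ (G H : Type) [Group G] [Group H] (f : G →* H), Function.Injective f → FPB H → FPB G) ∧
    -- (3) extensions
    (∀ (G Q : Type) [Group G] [Group Q] (q : G →* Q), FPB Q → FPB q.ker → FPB G) ∧
    -- (4) overgroups of finite index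
    (∀ (G : Type) [Group G] (K : Subgroup G) [K.FiniteIndex], FPB K → FPB G) ∧
    -- (5) quotients by unions of finite normal subgroups
    (∀ (G : Type) [Group G] (N : Subgroup G) [N.Normal],
      (∀ x ∈ N, (Subgroup.normalClosure {x} : Set G).Finite) → FPB G → FPB (G ⧸ N)) ∧
    -- (6) directed colimits
    (∀ (I : Type) [Preorder I] [IsDirectedOrder I] [Nonempty I] (L : I → Type)
      [∀ i, Group (L i)] (G : Type) [Group G] (t : ∀ i j, i ≤ j → L i →* L j)
      (g : ∀ i, L i →* G),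
      (∀ i j k (hij : i ≤ j) (hjk : j ≤ k) x,
        t j k hjk (t i j hij x) = t i k (hij.trans hjk) x) →
      (∀ i j (hij : i ≤ j) x, g j (t i j hij x) = g i x) → (∀ y, ∃ i x, g i x = y) →
      (∀ i x, g i x = 1 → ∃ j, ∃ hij : i ≤ j, t i j hij x = 1) →
      (∀ i, FPB (L i)) → FPB G) ∧
    -- (7) cocycles with finitely many values
    (∀ (G L Y : Type) [Group G] [Group L] (ρ : G →* Equiv.Perm Y) (c : G → Y → L),
      (∀ g h y, c (g * h) y = c g (ρ h y) * c h y) → (∀ g, (Set.range (c g)).Finite) →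
      (∀ g, ρ g = 1 → (∀ y, c g y = 1) → g = 1) → FPB L → FPB ρ.range → FPB G) ∧
    -- (8) HNN extensions
    (∀ (G : Type) [Group G] (A B : Subgroup G) (φ : A ≃* B), FPB G →
      FPB (HNNExtension G A B φ)) ∧
    -- (9), (10) groups acting on trees and on hyperbolic graphs
    (∀ (V : Type) (A : SimpleGraph V) (G : Type) [Group G] [MulAction G V],
      (∀ (g : G) (u v : V), A.Adj u v → A.Adj (g • u) (g • v)) →
      (A.IsTree → (∀ v : V, FPB (MulAction.stabilizer G v)) → FPB G) ∧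
      (A.Connected → ∀ δ : ℕ,
        (∀ x y z w, A.dist x y + A.dist z w ≤
          max (A.dist x z + A.dist y w) (A.dist x w + A.dist y z) + 2 * δ) →
        ((∀ v : V, FPB (MulAction.stabilizer G v)) →
          (∀ r : ℕ, ∃ N : ℕ, ∀ x : V, (MulAction.orbit G x ∩ {y | A.dist x y ≤ r}).encard ≤ N) →
          FPB G) ∧
        ((∀ K : Subgroup G, (∃ (x : V) (r : ℕ), ∀ g ∈ K, A.dist x (g • x) ≤ r) → FPB K) →
          (∀ r : ℕ, ∃ R N : ℕ, ∀ x y : V, R ≤ A.dist x y →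
            {g : G | A.dist x (g • x) ≤ r ∧ A.dist y (g • y) ≤ r}.encard ≤ N) → FPB G))) ∧
    -- (11) groups acting on finite-dimensional wall spaces
    (∀ (V : Type) [Nonempty V] (G : Type) [Group G] [MulAction G V] (W : Set (Set V)) (D : ℕ),
      (∀ g : G, ∀ h ∈ W, (fun v => g • v) '' h ∈ W) →
      (∀ x y : V, {h | h ∈ W ∧ x ∉ h ∧ y ∈ h}.Finite ∧
        ∀ F : Finset (Set V), (∀ h ∈ F, h ∈ W ∧ x ∉ h ∧ y ∈ h) →
          (∀ h ∈ F, ∀ k ∈ F, h ⊆ k → h = k) → F.card ≤ D) →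
      (∀ K : Subgroup G, (∃ (x : V) (r : ℕ), ∀ g ∈ K,
        {h | h ∈ W ∧ x ∉ h ∧ g • x ∈ h}.encard ≤ r) → FPB K) → FPB G) ∧
    -- (12) almost automorphisms of rooted trees
    (∀ (Ω : Type) (r : ℕ → Setoid Ω), (∀ n x y, r (n + 1) x y → r n x y) →
      (∀ n, Finite (Quotient (r n))) → (∀ n x, ∃ y, r n x y ∧ ¬ r (n + 1) x y) →
      ∀ G : Subgroup (Equiv.Perm Ω),
      (∀ g ∈ G, ∃ n, ∀ x, ∃ m, ∀ y, r n x y → ∀ k z, r (n + k) y z ↔ r (m + k) (g y) (g z)) →
      (∀ (x : Ω) (n : ℕ) (H : Subgroup (Equiv.Perm Ω)),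
        (∀ h ∈ H, (∀ z, ¬ r n x z → h z = z) ∧ (∀ k y z, r k y z ↔ r k (h y) (h z)) ∧
          ∃ g ∈ G, ∀ z, r n x z → h z = g z) → FPB H) → FPB G) ∧
    -- (13) groups of Roever and Nekrashevych
    (∀ (X : Type) [Finite X] (K : Subgroup (Equiv.Perm (Stream' X))),
      (∀ k ∈ K, ∀ x : X, ∃ y : X, ∃ k' ∈ K, ∀ ξ, k ([x] ++ₛ ξ) = [y] ++ₛ k' ξ) → FPB K →
      ∀ G : Subgroup (Equiv.Perm (Stream' X)), (∀ g ∈ G, ∃ n, ∀ v : List X, v.length = n →
        ∃ w, ∃ k ∈ K, ∀ ξ, g (v ++ₛ ξ) = w ++ₛ k ξ) → FPB G) := by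
  refine ⟨?_, ?_, ?_, ?_, ?_, ?_, ?_, ?_, ?_, ?_, ?_, ?_⟩
  · intro G _ h
    exact fpb_of_fg h
  · intro G H _ _ f hf h
    exact fpb_of_injective f hf h
  · intro G Q _ _ q hQ hk
    exact fpb_ext q hQ hk
  · intro G _ K _ h
    exact fpb_of_finiteIndex K h
  · intro G _ N _ hN h
    exact fpb_quot_local N hN h
  · intro I _ _ _ L _ G _ t g h1 h2 h3 h4 h5
    exact fpb_colimit t g h1 h2 h3 h4 h5
  · intro G L Y _ _ ρ c h1 h2 h3 hL hQ
    exact fpb_cocycle hL ρ c h1 h2 h3 hQ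
  · intro G _ A B φ h
    exact H260.fpb_hnn φ h
  · intro V A G _ _ h1
    exact ⟨fun hA h2 => H260.fpb_of_tree A hA h1 h2, fun hA δ h3 =>
      ⟨fun h2 h4 => fpb_of_hyperbolic A hA δ h3 h1 h4 h2,
        fun h2 h4 => fpb_of_acylindrical A hA δ h3 h1 h4 h2⟩⟩
  · intro V _ G _ _ W D h1 h2 h3
    exact fpb_of_walls W h1 (fun x y => (h2 x y).1) D (fun x y => (h2 x y).2) h3
  · intro Ω r h1 h2 h3 G h4 h5
    exact AA.fpb_aa ⟨h1, h2, h3⟩ G h4 h5
  · intro X _ K hK hF G hG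
    exact fpb_mono (L := Rover.RN K hK) hG (Rover.fpb_RN hK hF)

end Vale.Agent.Results.P192.ClosureProperties
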