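import Vale.Agent.P192.H663.GeoInf
import Vale.Agent.P192.H663.Dim

/-!
# P192: finitely presented periodic groups and contracting self-similar groups
-/

namespace Vale.Agent.Results.P192.ContractingGroups

open Vale.Agent.P192

section aux

variable {T Y : Type} [Group T]

theorem secL_eq (S : SS T Y) (v : List Y) (g : T) : S.secL g v = v.foldl S.sec g := by
  induction v generalizing g with
  | nil => rfl
  | cons y v ih => exact ih _

theorem faithful_iff (S : SS T Y) :
    S.Faithful ↔ ∀ g : T, (∀ v : List Y, S.σ (v.foldl S.sec g) = 1) → g = 1 := by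
  constructor
  · intro h g hg
    refine h g (fun v => ?_)
    rw [secL_eq]
    exact hg v
  · intro h g hg
    refine h g (fun v => ?_)
    rw [← secL_eq]
    exact hg v

theorem deep_iff (S : SS T Y) (N : Set T) (n : ℕ) (g : T) :
    S.deep N n g ↔ ∀ v : List Y, v.length = n → v.foldl S.sec g ∈ N := by
  induction n generalizing g with
  | zero =>
    constructor
    · intro h v hv
      rw [List.length_eq_zero_iff.1 hv]
      exact h
    · intro h
      exact h [] rfl
  | succ n ih =>
    constructor
    · intro h v hv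
      cases v with
      | nil => simp at hv
      | cons y v => exact (ih _).1 (h y) v (by simpa using hv)
    · intro h y
      exact (ih _).2 (fun v hv => h (y :: v) (by simpa using hv))

theorem Kn_iff (S : SS T Y) (n : ℕ) (g : T) :
    g ∈ S.Kn n ↔ ∀ v : List Y, S.σ (v.foldl S.sec g) = 1 ∧
      (v.length = n → v.foldl S.sec g = 1) := by
  induction n generalizing g with
  | zero =>
    rw [S.mem_Kn_zero]
    constructor
    · rintro rfl v
      have h1 : ∀ v : List Y, v.foldl S.sec (1 : T) = 1 := by
        intro v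
        induction v with
        | nil => rfl
        | cons y v ih => rw [List.foldl_cons, S.sec_one]; exact ih
      rw [h1, map_one]
      exact ⟨rfl, fun _ => rfl⟩
    · intro h
      exact (h []).2 rfl
  | succ n ih =>
    rw [S.mem_Kn_succ]
    constructor
    · rintro ⟨h0, h⟩ v
      cases v with
      | nil => exact ⟨h0, fun hv => by simp at hv⟩
      | cons y v =>
        have := (ih _).1 (h y) v
        exact ⟨this.1, fun hv => this.2 (by simpa using hv)⟩
    · intro h
      refine ⟨(h []).1, fun y => (ih _).2 (fun v => ?_)⟩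
      have := h (y :: v)
      exact ⟨this.1, fun hv => this.2 (by simpa using hv)⟩

theorem selfSimilar (S : SS T Y) (hσ : FPB S.σ.range)
    (hfin : ∀ g, (Set.range (S.sec g)).Finite) (hT : FPB T) (G : Type) [Group G] (π : T →* G)
    (hπ : Function.Surjective π) (hk : ∀ g, π g = 1 ↔ ∃ n, ∀ v : List Y,
      S.σ (v.foldl S.sec g) = 1 ∧ (v.length = n → v.foldl S.sec g = 1)) : FPB G := by
  refine fpb_iUnion_ker π hπ S.Kn S.Kn_le_succ ?_ (fun n => S.fpb_quot_Kn' hT hσ hfin n)
  intro x
  rw [hk]
  constructor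
  · rintro ⟨n, hn⟩
    exact ⟨n, (Kn_iff S n x).2 hn⟩
  · rintro ⟨n, hn⟩
    exact ⟨n, (Kn_iff S n x).1 hn⟩

end aux

/-- **Contracting self-similar groups.** `FPB G` says that every homomorphism from a finitely
presented periodic group to `G` has finite image. -/
theorem result :
    (∀ (T Y : Type) [Group T] (σ : T →* Equiv.Perm Y) (sec : T → Y → T),
      (∀ g h y, sec (g * h) y = sec g (σ h y) * sec h y) →
      FPB σ.range → (∀ g, (Set.range (sec g)).Finite) →
      -- (1) self-similar quotients
      (FPB T → ∀ (G : Type) [Group G] (π : T →* G), Function.Surjective π →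
        (∀ g, π g = 1 ↔ ∃ n, ∀ v : List Y, σ (v.foldl sec g) = 1 ∧
          (v.length = n → v.foldl sec g = 1)) → FPB G) ∧
      -- contracting groups
      ((∀ g, (∀ v : List Y, σ (v.foldl sec g) = 1) → g = 1) →
        ∀ N : Set T, 1 ∈ N → (∀ a ∈ N, ∀ y, sec a y ∈ N) →
        (∀ g, ∃ n, ∀ v : List Y, v.length = n → v.foldl sec g ∈ N) →
        -- (2) partitions
        (∀ (M : Subgroup T) [M.Normal] (R : Set (Setoid T)), FPB (T ⧸ M) → R.Finite →
          (∀ r ∈ R, (∀ t, ∀ m ∈ M, r t (t * m)) ∧ ∀ a ∈ N, ∀ b ∈ N, a * b ∈ N → ∀ t,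
            r t (b * t) ∨ r (b * t) (a * b * t) ∨ r t (a * b * t)) →
          (∀ g : Setoid T → T, FPB (Subgroup.closure {x : T | x ∈ M ∧ ∀ r ∈ R,
            Relation.EqvGen (fun t t' => r t t' ∧ ∃ a ∈ N, t' = a * t) (g r) (g r * x)})) →
          FPB T) ∧
        -- groups over `T` in which the relations of length three hold
        ∀ (L : Type) [Group L] (e : N → L) (π : L →* T), (∀ a, π (e a) = a) →
          (∀ a b c : N, (a : T) * b = c → e a * e b = e c) →
          -- (3) groups in the class
          (FPB L → FPB T) ∧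
          -- (4) groups acting on wall spaces
          (∀ (M : Subgroup T) [M.Normal] (V : Type) [Nonempty V] [MulAction (M.comap π) V]
            (W : Set (Set V)) (D : ℕ), FPB (T ⧸ M) →
            (∀ g : M.comap π, ∀ h ∈ W, (fun v => g • v) '' h ∈ W) →
            (∀ x y : V, {h | h ∈ W ∧ x ∉ h ∧ y ∈ h}.Finite ∧
              ∀ F : Finset (Set V), (∀ h ∈ F, h ∈ W ∧ x ∉ h ∧ y ∈ h) →
                (∀ h ∈ F, ∀ k ∈ F, h ⊆ k → h = k) → F.card ≤ D) →
            (∀ K : Subgroup (M.comap π), (∃ (x : V) (r : ℕ), ∀ g ∈ K,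
              {h | h ∈ W ∧ x ∉ h ∧ g • x ∈ h}.encard ≤ r) →
                FPB (K.map (π.comp (M.comap π).subtype))) → FPB T))) ∧
    -- (5) two-colourings of the words with bounded monochromatic components
    (∀ (X : Type) [Finite X] (T : Subgroup (Equiv.Perm (List X))) (N : Set (List X → List X)),
      (∀ g ∈ T, ∀ w, (g w).length = w.length) →
      (∀ g ∈ T, ∃ n, ∀ v : List X, n ≤ v.length → ∃ f ∈ N, ∀ w, g (v ++ w) = g v ++ f w) →
      ∀ (B : ℕ) (U : Set (List X)), (∀ w : List X, {w' | Relation.ReflTransGen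
        (fun a b => (a ∈ U ↔ b ∈ U) ∧ ∃ f ∈ N, f a = b) w w'}.encard ≤ B) → FPB T) := by
  refine ⟨?_, ?_⟩
  · intro T Y _ σ sec hsec hσ hsf
    let S : SS T Y := ⟨σ, sec, hsec⟩
    refine ⟨?_, ?_⟩
    · intro hT G _ π hπ hk
      exact selfSimilar S hσ hsf hT G π hπ hk
    · intro hf N h1 hN hc
      have hf' : S.Faithful := (faithful_iff S).2 hf
      have hc' : ∀ g, ∃ n, S.deep N n g := fun g => (hc g).imp fun n hn => (deep_iff S N n g).2 hn
      refine ⟨?_, ?_⟩
      · intro M _ R hM hR hr hP
        exact S.partitions' N h1 hN hf' hσ hsf hc' M hM R hR hr hP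
      · intro L _ e π hπ hrel
        refine ⟨?_, ?_⟩
        · intro hL
          refine S.fpb_of_good' N h1 hN hf' hσ hsf hc' ⊤ (fpb_of_finite _) e π hπ hrel ?_
          intro Γ _ hΓ ht f _
          have h2 := hL Γ hΓ ht f
          exact (((Set.toFinite (f.range : Set L)).image π).subset (by
            rintro _ ⟨γ, rfl⟩
            exact ⟨f γ, ⟨γ, rfl⟩, rfl⟩)).to_subtype
        · intro M _ V _ _ W D hM hW hfin hb
          exact S.walls' N h1 hN hf' hσ hsf hc' M hM e π hπ hrel W D hW hfin hb
  · intro X _ T N h1 h2 B U h3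
    exact Dim.fpb_colour X T N h1 h2 B U h3

end Vale.Agent.Results.P192.ContractingGroups
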