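import Vale.Agent.P192.H260.CMFinal
import Vale.Agent.P192.H663.CMNear
import Vale.Agent.P192.H524.Circle
import Vale.Agent.P192.H124.NearReal
import Vale.Agent.P192.H903.AffE
import Vale.Agent.P192.H903.Ring

/-!
# P192: coarsely piecewise monotone bijections, linear groups and linear automata
-/

namespace Vale.Agent.Results.P192.IntervalExchanges

open Vale.Agent.P192 Polynomial

/-- `K` is the union of `m` convex sets on each of which `g` preserves, or reverses, the order of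
all `x < y` with more than `N` points in `[x, y]`. -/
def CPW {K : Type} [LinearOrder K] (m N : ℕ) (g : K → K) : Prop :=
  ∃ C : Fin m → Set K, (∀ x, ∃ j, x ∈ C j) ∧ ∀ j, (C j).OrdConnected ∧
    ((∀ x ∈ C j, ∀ y ∈ C j, x < y → (Set.Icc x y).encard ≤ N ∨ g x < g y) ∨
      ∀ x ∈ C j, ∀ y ∈ C j, x < y → (Set.Icc x y).encard ≤ N ∨ g y < g x)

/-- Automata over vectors of integers. -/
def IntAut : Prop :=
  ∀ m : ℕ, 2 ≤ m → ∀ (d : ℕ) (Γ : Type) [Group Γ], Group.IsFinitelyPresented Γ →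
    (∀ x : Γ, IsOfFinOrder x) → ∀ S : Set Γ, Subgroup.closure S = ⊤ →
    ∀ ρ : Γ →* Equiv.Perm (List (Fin d → Fin m)), (∀ g w, (ρ g w).length = w.length) →
    (∀ g v w, ρ g v <+: ρ g (v ++ w)) →
    (∀ g ∈ S, {f : List (Fin d → Fin m) → List (Fin d → Fin m) |
      ∃ v, ∀ w, ρ g (v ++ w) = ρ g v ++ f w}.Finite) →
    (∀ g ∈ S, ∃ C k : ℕ, ∀ n, {v : List (Fin d → Fin m) | v.length = n ∧
      ¬ ∃ (D : ℤ) (A : Matrix (Fin d) (Fin d) ℤ) (b : Fin d → ℤ),
        IsCoprime D m ∧ IsCoprime A.det m ∧ ∀ w, ∃ u, ρ g (v ++ w) = ρ g v ++ u ∧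
          ∀ i, (m : ℤ) ^ w.length ∣
            D * u.foldr (fun x a => ((x i : ℕ) : ℤ) + m * a) 0 -
              (∑ j, A i j * w.foldr (fun x a => ((x j : ℕ) : ℤ) + m * a) 0 + b i)}.ncard ≤
        C * (n + 1) ^ k) → Finite ρ.range

/-- Automata over vectors of polynomials. -/
def PolyAut : Prop :=
  ∀ (K : Type) [Field K] [Finite K] (d : ℕ) (Γ : Type) [Group Γ],
    Group.IsFinitelyPresented Γ → (∀ x : Γ, IsOfFinOrder x) →
    ∀ S : Set Γ, Subgroup.closure S = ⊤ →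
    ∀ ρ : Γ →* Equiv.Perm (List (Fin d → K)), (∀ g w, (ρ g w).length = w.length) →
    (∀ g v w, ρ g v <+: ρ g (v ++ w)) →
    (∀ g ∈ S, {f : List (Fin d → K) → List (Fin d → K) |
      ∃ v, ∀ w, ρ g (v ++ w) = ρ g v ++ f w}.Finite) →
    (∀ g ∈ S, ∃ C k : ℕ, ∀ n, {v : List (Fin d → K) | v.length = n ∧
      ¬ ∃ (D : K[X]) (A : Matrix (Fin d) (Fin d) K[X]) (b : Fin d → K[X]),
        IsCoprime D X ∧ IsCoprime A.det X ∧ ∀ w, ∃ u, ρ g (v ++ w) = ρ g v ++ u ∧
          ∀ i, (X : K[X]) ^ w.length ∣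
            D * u.foldr (fun x a => Polynomial.C (x i) + X * a) 0 -
              (∑ j, A i j * w.foldr (fun x a => Polynomial.C (x j) + X * a) 0 + b i)}.ncard ≤
        C * (n + 1) ^ k) → Finite ρ.range

/-- **Coarsely piecewise monotone bijections, linear groups and linear automata.**
`FPB G` says that every homomorphism from a finitely presented periodic group to `G` has finite
image. -/
theorem result :
    -- (1) families of coarsely piecewise monotone bijections of linearly ordered sets with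
    -- bounded constants, bijections of the line and of the circle with few discontinuities
    (∀ (B : Type) (X : B → Type) [∀ b, LinearOrder (X b)] (G : Subgroup (∀ b, Equiv.Perm (X b))),
      (∀ g ∈ G, ∃ m N : ℕ, ∀ b, CPW m N (g b)) → FPB G) ∧
    (∀ G : Subgroup (Equiv.Perm ℝ), (∀ g ∈ G, {x | ¬ ContinuousAt g x}.Finite) → FPB G) ∧
    (∀ G : Subgroup (Equiv.Perm (AddCircle (1 : ℝ))),
      (∀ g ∈ G, {x | ¬ ContinuousAt g x}.Finite) → FPB G) ∧
    -- the same modulo finite sets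
    (∀ (K : Type) [LinearOrder K] (G : Type) [Group G] (ρ : G → K → K),
      {x | ρ 1 x ≠ x}.Finite → (∀ g h, {x | ρ (g * h) x ≠ ρ g (ρ h x)}.Finite) →
      (∀ g, ∃ m N : ℕ, CPW m N (ρ g)) → (∀ g, {x | ρ g x ≠ x}.Finite → g = 1) → FPB G) ∧
    (∀ (G : Type) [Group G] (ρ : G → ℝ → ℝ),
      {x | ρ 1 x ≠ x}.Finite → (∀ g h, {x | ρ (g * h) x ≠ ρ g (ρ h x)}.Finite) →
      (∀ g, {x | ¬ ContinuousAt (ρ g) x}.Finite) → (∀ g, {x | ρ g x ≠ x}.Finite → g = 1) →
      FPB G) ∧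
    (∀ (G : Type) [Group G] (ρ : G → AddCircle (1 : ℝ) → AddCircle (1 : ℝ)),
      {x | ρ 1 x ≠ x}.Finite → (∀ g h, {x | ρ (g * h) x ≠ ρ g (ρ h x)}.Finite) →
      (∀ g, {x | ¬ ContinuousAt (ρ g) x}.Finite) → (∀ g, {x | ρ g x ≠ x}.Finite → g = 1) →
      FPB G) ∧
    -- (2) matrices over commutative rings
    (∀ (A : Type) [CommRing A] (n : ℕ), FPB (GL (Fin n) A)) ∧
    -- (3) automata over vectors of integers, (4) the same for polynomials
    IntAut ∧ PolyAut := by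
  refine ⟨fun B X _ G hG => CM.coarse_family B X G (fun g hg => by
      obtain ⟨m, N, h⟩ := hG g hg
      exact ⟨N, m, h⟩),
    fun G hG => H524.row_real H834.pmain G hG,
    fun G hG => H524.row_circle H834.pmain G hG,
    fun K _ G _ ρ h1 h2 h3 h4 => CM.near_cm CM.coarse K G ρ h1 h2 (fun g => by
      obtain ⟨m, N, C, h5, h6⟩ := h3 g
      refine ⟨N, Set.range C, Set.finite_range C, ?_, ?_⟩
      · rw [Set.eq_univ_iff_forall]
        intro x
        obtain ⟨j, hj⟩ := h5 x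
        exact ⟨C j, ⟨j, rfl⟩, hj⟩
      · rintro _ ⟨j, rfl⟩
        exact h6 j) h4,
    fun G _ ρ h1 h2 h3 h4 => Near.near_real H834.pmain G ρ h1 h2 h3 h4,
    fun G _ ρ h1 h2 h3 h4 => Near.near_circle H834.pmain G ρ h1 h2 h3 h4, ?_,
    ?_, ?_⟩
  · intro A _ n
    exact H903.fpb_GL A
  · intro m hm d Γ _ hΓ ht S hS ρ h1 h2 h3 h4
    exact H903.affine_explicit m hm d Γ hΓ ht S hS ρ h1 h2 h3 h4
  · intro K _ _ d Γ _ hΓ ht S hS ρ h1 h2 h3 h4
    exact H903.affine_explicit_ff K d Γ hΓ ht S hS ρ h1 h2 h3 h4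

end Vale.Agent.Results.P192.IntervalExchanges
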