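import Vale.Agent.P192.H124.InfExplicit
import Vale.Agent.P192.H491.Explicit
import Vale.Agent.P192.H826.RelPoly
import Vale.Agent.P192.H826.VAx

/-!
# P192: finitely presented periodic groups acting on rooted trees: polynomial activity and
countably many singular rays
-/

namespace Vale.Agent.Results.P192.PolynomialActivity

open Vale.Agent.P192

/-- **Finitely presented periodic groups acting on rooted trees.** `FPB G` says that every
homomorphism from a finitely presented periodic group to `G` has finite image, `Sec g v f` that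
`f` is the section of `g` at the word `v`, `pre ξ n` is the prefix of length `n` of the infinite
word `ξ`. -/
theorem result :
    -- (1) automata of polynomial activity
    (∀ (X : Type) [Finite X] (Γ : Type) [Group Γ], Group.IsFinitelyPresented Γ →
      (∀ x : Γ, IsOfFinOrder x) → ∀ S : Set Γ, Subgroup.closure S = ⊤ →
      ∀ ρ : Γ →* Equiv.Perm (List X), (∀ g w, (ρ g w).length = w.length) →
      (∀ g v w, ρ g v <+: ρ g (v ++ w)) →
      (∀ g ∈ S, {f : List X → List X | ∃ v, ∀ w, ρ g (v ++ w) = ρ g v ++ f w}.Finite) →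
      (∀ g ∈ S, ∃ C k : ℕ, ∀ n, {v : List X | v.length = n ∧
        ∃ w, ρ g (v ++ w) ≠ ρ g v ++ w}.ncard ≤ C * (n + 1) ^ k) → Finite ρ.range) ∧
    -- (2) countably many singular rays, finite alphabet
    (∀ (X : Type) [Finite X] (H : Subgroup (Equiv.Perm (List X))), FPB H →
      (∀ h ∈ H, ∀ v, ∃ k ∈ H, Sec h v k) →
      (∀ h ∈ H, ∀ ξ : ℕ → X, {f | ∃ n x, x ≠ ξ n ∧ Sec h (pre ξ n ++ [x]) f}.Finite) →
      ∃ C : Subgroup (Equiv.Perm (List X)), FPB C ∧ (∀ g ∈ C, ∀ v, ∃ k ∈ C, Sec g v k) ∧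
        (∀ g, g ∈ C ↔ (∀ w, (g w).length = w.length) ∧ (∀ v w, g v <+: g (v ++ w)) ∧
          (∀ ξ : ℕ → X, {f | ∃ n x, x ≠ ξ n ∧ Sec g (pre ξ n ++ [x]) f}.Finite) ∧
          {ξ : ℕ → X | ∀ n, ¬ ∃ k ∈ H, Sec g (pre ξ n) k}.Countable) ∧
        ∀ g : Equiv.Perm (List X), (∀ w, (g w).length = w.length) →
          (∀ v w, g v <+: g (v ++ w)) → {f | ∃ v, Sec g v f}.Finite →
          (∃ C k : ℕ, ∀ n, {v : List X | v.length = n ∧ ¬ ∃ h ∈ H, Sec g v h}.ncard ≤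
            C * (n + 1) ^ k) → g ∈ C) ∧
    -- (3) countably many singular rays, arbitrary alphabet
    (∀ (X : Type) (P : Subgroup (Equiv.Perm X)), FPB P →
      ∀ H : Subgroup (Equiv.Perm (List X)), FPB H → (∀ h ∈ H, ∀ v, ∃ k ∈ H, Sec h v k) →
      (∀ h ∈ H, Fdr h) →
      ∃ C : Subgroup (Equiv.Perm (List X)), FPB C ∧ (∀ g ∈ C, ∀ v, ∃ k ∈ C, Sec g v k) ∧
        ∀ g, g ∈ C ↔ (∀ v, ∃ p ∈ P, ∀ x, g (v ++ [x]) = g v ++ [p x]) ∧ Fdr g ∧
          {ξ : ℕ → X | ∀ n, ¬ ∃ k ∈ H, Sec g (pre ξ n) k}.Countable) ∧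
    -- (4) countably many singular rays, groups with ray stabilisers in the class
    (∀ (X : Type) (P : Subgroup (Equiv.Perm X)), FPB P → ∀ A : Subgroup (Equiv.Perm (List X)),
      (∀ g ∈ A, ∀ v, ∃ p ∈ P, ∀ x, g (v ++ [x]) = g v ++ [p x]) →
      (∀ g ∈ A, ∀ v, ∃ k ∈ A, Sec g v k) → (∀ g ∈ A, {f | ∃ x, Sec g [x] f}.Finite) →
      (∀ H ≤ A, FPB H → (∀ h ∈ H, ∀ v, ∃ k ∈ H, Sec h v k) → ∀ K ≤ A,
        (∃ ξ : ℕ → X, ∀ g ∈ K, ∀ n, g (pre ξ n) = pre ξ n ∧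
          ∀ x, x ≠ ξ n → ∃ k ∈ H, Sec g (pre ξ n ++ [x]) k) → FPB K) →
      ∀ H ≤ A, FPB H → (∀ h ∈ H, ∀ v, ∃ k ∈ H, Sec h v k) →
      ∃ C ≤ A, FPB C ∧ (∀ g ∈ C, ∀ v, ∃ k ∈ C, Sec g v k) ∧
        ∀ g ∈ A, g ∈ C ↔ {ξ : ℕ → X | ∀ n, ¬ ∃ k ∈ H, Sec g (pre ξ n) k}.Countable) := by
  refine ⟨?_, ?_, ?_, ?_⟩
  · intro X _ Γ _ hΓ ht S hS ρ h1 h2 h3 h4
    exact poly_explicit X Γ ht S hS ρ h1 h2 h3 h4
  · intro X _ H k4 k2 k3
    obtain ⟨C, hC, hc, hm⟩ := count_short X H k2 k3 k4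
    refine ⟨C, hC, hc, hm, ?_⟩
    intro g g1 g2 g3 g4
    exact (hm g).2 ⟨g1, g2, relpoly_short X H g g1 g2 g3 g4⟩
  · intro X P hP H k4 k2 k3
    exact inf_short X P hP H k2 k3 k4
  · intro X P hP A a1 a2 a3 a4 H hle k4 k2
    exact stab_short X P hP A a1 a2 a3 a4 H hle k4 k2

end Vale.Agent.Results.P192.PolynomialActivity
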